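import Crest.Agent.Cyl.S0326.Linear

/-!
Uniform estimates on the compact set `D` for S0326.
-/

set_option autoImplicit false

namespace Crest.Agent.Cyl326

open MeasureTheory Set Metric

/-- the weight -/
noncomputable def Jf (h : ℝ) (g : E2) : ℝ := 1 / Real.sqrt (1 + (g 0) ^ 2 + h ^ 2 * (g 1) ^ 2)

theorem Jf_arg_ge (h : ℝ) (g : E2) : 1 ≤ 1 + (g 0) ^ 2 + h ^ 2 * (g 1) ^ 2 := by
  nlinarith [sq_nonneg (g 0), sq_nonneg (h * g 1)]

theorem Jf_pos (h : ℝ) (g : E2) : 0 < Jf h g := by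
  unfold Jf
  have := Jf_arg_ge h g
  positivity

theorem Jf_le_one (h : ℝ) (g : E2) : Jf h g ≤ 1 := by
  unfold Jf
  have h1 : 1 ≤ Real.sqrt (1 + (g 0) ^ 2 + h ^ 2 * (g 1) ^ 2) := by
    rw [Real.one_le_sqrt]; exact Jf_arg_ge h g
  rw [div_le_one (by linarith)]
  exact h1

theorem continuous_Jf (h : ℝ) : Continuous (Jf h) := by
  unfold Jf
  refine Continuous.div continuous_const (Real.continuous_sqrt.comp (by fun_prop)) ?_
  intro g
  have := Jf_arg_ge h g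
  positivity

theorem Jf_close (h R σ : ℝ) (hσ : 0 < σ) :
    ∃ τ : ℝ, 0 < τ ∧ ∀ g g' : E2, ‖g‖ ≤ R → ‖g' - g‖ ≤ τ → |Jf h g' - Jf h g| ≤ σ := by
  have huc := (isCompact_closedBall (0 : E2) (R + 1)).uniformContinuousOn_of_continuous
    (continuous_Jf h).continuousOn
  rw [Metric.uniformContinuousOn_iff] at huc
  obtain ⟨τ, hτ, H⟩ := huc σ hσ
  refine ⟨min (τ / 2) 1, by positivity, ?_⟩
  intro g g' hg hgg'
  have h1 : ‖g' - g‖ ≤ τ / 2 := hgg'.trans (min_le_left _ _)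
  have h2 : ‖g' - g‖ ≤ 1 := hgg'.trans (min_le_right _ _)
  have hg' : ‖g'‖ ≤ R + 1 := by
    calc ‖g'‖ = ‖g + (g' - g)‖ := by congr 1; abel
      _ ≤ ‖g‖ + ‖g' - g‖ := norm_add_le _ _
      _ ≤ R + 1 := add_le_add hg h2
  have := H g' (by simpa using hg') g (by simpa using hg.trans (by linarith))
    (by rw [dist_eq_norm]; linarith)
  rw [Real.dist_eq] at this
  exact this.le

variable {D U : Set E2} {V : E2 → E2}

theorem continuousOn_det (hU : IsOpen U) (hV : ContDiffOn ℝ 1 V U) :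
    ContinuousOn (fun p => LinearMap.det (fderiv ℝ V p).toLinearMap) U := by
  have hc := hV.continuousOn_fderiv_of_isOpen hU le_rfl
  have : (fun p => LinearMap.det (fderiv ℝ V p).toLinearMap) = fun p =>
      inner ℝ (fderiv ℝ V p stdFrame.e₁) stdFrame.e₁ * inner ℝ (fderiv ℝ V p stdFrame.e₂) stdFrame.e₂ -
      inner ℝ (fderiv ℝ V p stdFrame.e₂) stdFrame.e₁ * inner ℝ (fderiv ℝ V p stdFrame.e₁) stdFrame.e₂ := by
    funext p; exact det_frame _ _
  rw [this]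
  have h1 : ∀ e : E2, ContinuousOn (fun p => fderiv ℝ V p e) U := fun e =>
    hc.clm_apply continuousOn_const
  exact (((h1 _).inner continuousOn_const).mul ((h1 _).inner continuousOn_const)).sub
    (((h1 _).inner continuousOn_const).mul ((h1 _).inner continuousOn_const))

theorem exists_consts (hD : IsCompact D) (hU : IsOpen U) (hDU : D ⊆ U) (hV : ContDiffOn ℝ 1 V U)
    {L : ℝ} (hL : 0 < L)
    (hdet : ∀ p ∈ D, -(L ^ 2)⁻¹ < LinearMap.det (fderiv ℝ V p).toLinearMap) :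
    ∃ M κ R : ℝ, 0 < κ ∧ 0 ≤ M ∧ (∀ p ∈ D, ‖fderiv ℝ V p‖ ≤ M) ∧
      (∀ p ∈ D, κ ≤ 1 + L ^ 2 * LinearMap.det (fderiv ℝ V p).toLinearMap) ∧
      (∀ p ∈ D, ‖V p‖ ≤ R) := by
  have hc := (hV.continuousOn_fderiv_of_isOpen hU le_rfl).mono hDU
  obtain ⟨M, hM⟩ := hD.exists_bound_of_continuousOn hc
  obtain ⟨R, hR⟩ := hD.exists_bound_of_continuousOn (hV.continuousOn.mono hDU)
  have hpos : ∀ p ∈ D, 0 < 1 + L ^ 2 * LinearMap.det (fderiv ℝ V p).toLinearMap := by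
    intro p hp
    have h1 := hdet p hp
    have h2 : 0 < L ^ 2 := by positivity
    have h3 : L ^ 2 * (-(L ^ 2)⁻¹) < L ^ 2 * LinearMap.det (fderiv ℝ V p).toLinearMap :=
      mul_lt_mul_of_pos_left h1 h2
    have h4 : L ^ 2 * (-(L ^ 2)⁻¹) = -1 := by
      rw [mul_neg, mul_inv_cancel₀ h2.ne']
    linarith
  rcases D.eq_empty_or_nonempty with hE | hne
  · refine ⟨0, 1, 0, one_pos, le_rfl, ?_, ?_, ?_⟩ <;> (intro p hp; rw [hE] at hp; exact absurd hp (by simp))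
  · have hcd : ContinuousOn (fun p => 1 + L ^ 2 * LinearMap.det (fderiv ℝ V p).toLinearMap) D :=
      continuousOn_const.add (continuousOn_const.mul ((continuousOn_det hU hV).mono hDU))
    obtain ⟨x, hx, hmin⟩ := hD.exists_isMinOn hne hcd
    refine ⟨max M 0, _, R, hpos x hx, le_max_right _ _, fun p hp => (hM p hp).trans (le_max_left _ _),
      fun p hp => hmin hp, hR⟩

theorem exists_lin (hD : IsCompact D) (hU : IsOpen U) (hDU : D ⊆ U) (hV : ContDiffOn ℝ 1 V U)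
    {η : ℝ} (hη : 0 < η) :
    ∃ δ₁ : ℝ, 0 < δ₁ ∧ ∀ p₀ ∈ D, ∀ p : E2, ‖p - p₀‖ ≤ δ₁ →
      ‖V p - V p₀ - fderiv ℝ V p₀ (p - p₀)‖ ≤ η * ‖p - p₀‖ := by
  obtain ⟨δ₀, hδ₀, hsub⟩ := hD.exists_cthickening_subset_open hU hDU
  have hK : IsCompact (cthickening δ₀ D) := hD.cthickening
  have hc := (hV.continuousOn_fderiv_of_isOpen hU le_rfl).mono hsub
  have huc := hK.uniformContinuousOn_of_continuous hc
  rw [Metric.uniformContinuousOn_iff] at huc
  obtain ⟨δ', hδ', H⟩ := huc η hη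
  refine ⟨min δ₀ (δ' / 2), by positivity, ?_⟩
  intro p₀ hp₀ p hp
  set ρ := min δ₀ (δ' / 2) with hρ
  have hball : closedBall p₀ ρ ⊆ cthickening δ₀ D :=
    (closedBall_subset_cthickening hp₀ ρ).trans (cthickening_mono (min_le_left _ _) D)
  have hp₀K : p₀ ∈ cthickening δ₀ D := self_subset_cthickening D hp₀
  set f : E2 → E2 := fun x => V x - fderiv ℝ V p₀ x with hf
  have hdiff : ∀ x ∈ closedBall p₀ ρ, DifferentiableAt ℝ V x := by
    intro x hx
    exact (hV.differentiableOn one_ne_zero).differentiableAt (hU.mem_nhds (hsub (hball hx)))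
  have hfd : ∀ x ∈ closedBall p₀ ρ, DifferentiableAt ℝ f x := fun x hx =>
    (hdiff x hx).sub (fderiv ℝ V p₀).differentiableAt
  have hbound : ∀ x ∈ closedBall p₀ ρ, ‖fderiv ℝ f x‖ ≤ η := by
    intro x hx
    have e : fderiv ℝ f x = fderiv ℝ V x - fderiv ℝ V p₀ := by
      rw [hf, fderiv_fun_sub (hdiff x hx) (fderiv ℝ V p₀).differentiableAt,
        ContinuousLinearMap.fderiv]
    rw [e, ← dist_eq_norm]
    refine (H x (hball hx) p₀ hp₀K ?_).le
    have : dist x p₀ ≤ ρ := hx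
    have : ρ ≤ δ' / 2 := min_le_right _ _
    linarith
  have := (convex_closedBall p₀ ρ).norm_image_sub_le_of_norm_fderiv_le hfd hbound
    (mem_closedBall_self (by positivity)) (show p ∈ closedBall p₀ ρ by
      rw [mem_closedBall, dist_eq_norm]; exact hp)
  simp only [hf] at this
  rw [map_sub]
  have e : V p - V p₀ - ((fderiv ℝ V p₀) p - (fderiv ℝ V p₀) p₀) =
      V p - (fderiv ℝ V p₀) p - (V p₀ - (fderiv ℝ V p₀) p₀) := by abel
  rw [e]
  exact this

end Crest.Agent.Cyl326
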