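import Mathlib

/-!
Orthonormal frames of the Euclidean plane, coordinates, cells, volumes and counting.
-/

set_option autoImplicit false

namespace Crest.Agent.Cyl326

open MeasureTheory Set

abbrev E2 := EuclideanSpace ℝ (Fin 2)

/-- An (oriented) orthonormal frame of the plane. -/
structure Frame where
  c : ℝ
  s : ℝ
  h : c ^ 2 + s ^ 2 = 1

namespace Frame

variable (F : Frame)

noncomputable def e₁ : E2 := !₂[F.c, F.s]
noncomputable def e₂ : E2 := !₂[-F.s, F.c]

theorem inner_e₁ (x : E2) : inner ℝ x F.e₁ = x 0 * F.c + x 1 * F.s := by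
  simp [e₁, PiLp.inner_apply, Fin.sum_univ_two, mul_comm]

theorem inner_e₂ (x : E2) : inner ℝ x F.e₂ = - (x 0 * F.s) + x 1 * F.c := by
  simp [e₂, PiLp.inner_apply, Fin.sum_univ_two, mul_comm]

theorem e₁_e₁ : inner ℝ F.e₁ F.e₁ = 1 := by
  rw [inner_e₁]; simp [e₁]; nlinarith [F.h]

theorem e₂_e₂ : inner ℝ F.e₂ F.e₂ = 1 := by
  rw [inner_e₂]; simp [e₂]; nlinarith [F.h]

theorem e₁_e₂ : inner ℝ F.e₁ F.e₂ = 0 := by
  rw [inner_e₂]; simp [e₁]; ring

theorem e₂_e₁ : inner ℝ F.e₂ F.e₁ = 0 := by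
  rw [inner_e₁]; simp [e₂]; ring

theorem norm_e₁ : ‖F.e₁‖ = 1 := by
  have := real_inner_self_eq_norm_sq F.e₁
  rw [e₁_e₁] at this
  nlinarith [norm_nonneg F.e₁]

theorem norm_e₂ : ‖F.e₂‖ = 1 := by
  have := real_inner_self_eq_norm_sq F.e₂
  rw [e₂_e₂] at this
  nlinarith [norm_nonneg F.e₂]

theorem expand (x : E2) : x = inner ℝ x F.e₁ • F.e₁ + inner ℝ x F.e₂ • F.e₂ := by
  rw [inner_e₁, inner_e₂]
  ext i
  fin_cases i
  · simp [e₁, e₂]; linear_combination (- x 0) * F.h
  · simp [e₁, e₂]; linear_combination (- x 1) * F.h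

theorem inner_comb₁ (ξ η : ℝ) : inner ℝ (ξ • F.e₁ + η • F.e₂) F.e₁ = ξ := by
  rw [inner_add_left, inner_smul_left, inner_smul_left, e₁_e₁, e₂_e₁]; simp

theorem inner_comb₂ (ξ η : ℝ) : inner ℝ (ξ • F.e₁ + η • F.e₂) F.e₂ = η := by
  rw [inner_add_left, inner_smul_left, inner_smul_left, e₁_e₂, e₂_e₂]; simp

theorem norm_comb_le (ξ η : ℝ) : ‖ξ • F.e₁ + η • F.e₂‖ ≤ |ξ| + |η| := by
  calc _ ≤ ‖ξ • F.e₁‖ + ‖η • F.e₂‖ := norm_add_le _ _
    _ = |ξ| + |η| := by rw [norm_smul, norm_smul, norm_e₁, norm_e₂]; simp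

theorem abs_inner_e₁_le (x : E2) : |inner ℝ x F.e₁| ≤ ‖x‖ := by
  have := abs_real_inner_le_norm x F.e₁
  rwa [norm_e₁, mul_one] at this

theorem abs_inner_e₂_le (x : E2) : |inner ℝ x F.e₂| ≤ ‖x‖ := by
  have := abs_real_inner_le_norm x F.e₂
  rwa [norm_e₂, mul_one] at this

theorem orthonormal : Orthonormal ℝ ![F.e₁, F.e₂] := by
  constructor
  · intro i; fin_cases i
    · exact F.norm_e₁
    · exact F.norm_e₂
  · intro i j hij
    fin_cases i <;> fin_cases j
    · exact absurd rfl hij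
    · exact F.e₁_e₂
    · exact F.e₂_e₁
    · exact absurd rfl hij

noncomputable def basis : OrthonormalBasis (Fin 2) ℝ E2 :=
  OrthonormalBasis.mk F.orthonormal (by
    intro x _
    rw [F.expand x]
    refine Submodule.add_mem _ (Submodule.smul_mem _ _ (Submodule.subset_span ⟨0, rfl⟩))
      (Submodule.smul_mem _ _ (Submodule.subset_span ⟨1, rfl⟩)))

theorem basis_zero : F.basis 0 = F.e₁ := by simp [basis]
theorem basis_one : F.basis 1 = F.e₂ := by simp [basis]

/-- Coordinates with respect to the frame with origin `o`. -/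
noncomputable def coord (o : E2) (x : E2) : ℝ × ℝ := (inner ℝ (x - o) F.e₁, inner ℝ (x - o) F.e₂)

theorem measurePreserving_coord (o : E2) : MeasurePreserving (F.coord o) volume volume := by
  have h := (volume_preserving_finTwoArrow ℝ).comp ((PiLp.volume_preserving_ofLp (Fin 2)).comp
    (F.basis.measurePreserving_repr.comp (measurePreserving_sub_right volume o)))
  convert h using 1
  funext x
  simp only [coord, Function.comp_apply, MeasurableEquiv.finTwoArrow_apply]
  rw [Prod.mk.injEq]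
  constructor
  · rw [show (F.basis.repr (x - o)).ofLp 0 = F.basis.repr (x - o) 0 from rfl,
      OrthonormalBasis.repr_apply_apply, basis_zero, real_inner_comm]
  · rw [show (F.basis.repr (x - o)).ofLp 1 = F.basis.repr (x - o) 1 from rfl,
      OrthonormalBasis.repr_apply_apply, basis_one, real_inner_comm]

/-- closed box in frame coordinates -/
def box (o : E2) (a b c d : ℝ) : Set E2 := F.coord o ⁻¹' (Icc a b ×ˢ Icc c d)

theorem volume_box (o : E2) (a b c d : ℝ) :
    volume (F.box o a b c d) = ENNReal.ofReal (b - a) * ENNReal.ofReal (d - c) := by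
  unfold box
  rw [(F.measurePreserving_coord o).measure_preimage
    (measurableSet_Icc.prod measurableSet_Icc).nullMeasurableSet]
  rw [Measure.volume_eq_prod, Measure.prod_prod, Real.volume_Icc, Real.volume_Icc]

/-- half-open cell of side `r` -/
def cell (o : E2) (r : ℝ) (ij : ℤ × ℤ) : Set E2 :=
  F.coord o ⁻¹' (Ico (ij.1 * r) ((ij.1 + 1) * r) ×ˢ Ico (ij.2 * r) ((ij.2 + 1) * r))

theorem measurableSet_cell (o : E2) (r : ℝ) (ij : ℤ × ℤ) : MeasurableSet (F.cell o r ij) :=
  (F.measurePreserving_coord o).measurable (measurableSet_Ico.prod measurableSet_Ico)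

theorem volume_cell (o : E2) (r : ℝ) (ij : ℤ × ℤ) :
    volume (F.cell o r ij) = ENNReal.ofReal r * ENNReal.ofReal r := by
  unfold cell
  rw [(F.measurePreserving_coord o).measure_preimage
    (measurableSet_Ico.prod measurableSet_Ico).nullMeasurableSet]
  rw [Measure.volume_eq_prod, Measure.prod_prod, Real.volume_Ico, Real.volume_Ico]
  congr 2 <;> ring

theorem Ico_disjoint_aux {r : ℝ} (hr : 0 < r) {i i' : ℤ} {x : ℝ}
    (h : x ∈ Ico (i * r) ((i + 1) * r)) (h' : x ∈ Ico (i' * r) ((i' + 1) * r)) : i = i' := by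
  have h1 : (i : ℝ) < i' + 1 := by
    have := lt_of_le_of_lt h.1 h'.2
    exact lt_of_mul_lt_mul_right this hr.le
  have h2 : (i' : ℝ) < i + 1 := by
    have := lt_of_le_of_lt h'.1 h.2
    exact lt_of_mul_lt_mul_right this hr.le
  have h1' : i < i' + 1 := by exact_mod_cast h1
  have h2' : i' < i + 1 := by exact_mod_cast h2
  omega

theorem cell_disjoint (o : E2) {r : ℝ} (hr : 0 < r) {ij ij' : ℤ × ℤ} (hne : ij ≠ ij') :
    Disjoint (F.cell o r ij) (F.cell o r ij') := by
  rw [Set.disjoint_left]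
  intro x hx hx'
  apply hne
  simp only [cell, mem_preimage, mem_prod] at hx hx'
  exact Prod.ext (Ico_disjoint_aux hr hx.1 hx'.1) (Ico_disjoint_aux hr hx.2 hx'.2)

theorem exists_mem_cell (o : E2) {r : ℝ} (hr : 0 < r) (x : E2) : ∃ ij, x ∈ F.cell o r ij := by
  refine ⟨(⌊(F.coord o x).1 / r⌋, ⌊(F.coord o x).2 / r⌋), ?_⟩
  simp only [cell, mem_preimage, mem_prod, mem_Ico]
  refine ⟨⟨?_, ?_⟩, ⟨?_, ?_⟩⟩
  · rw [← le_div_iff₀ hr]; exact Int.floor_le _
  · rw [← div_lt_iff₀ hr]; exact Int.lt_floor_add_one _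
  · rw [← le_div_iff₀ hr]; exact Int.floor_le _
  · rw [← div_lt_iff₀ hr]; exact Int.lt_floor_add_one _

/-- counting cells by volume -/
theorem card_mul_le (o : E2) {r : ℝ} (hr : 0 < r) (I : Finset (ℤ × ℤ)) (S : Set E2)
    (hS : volume S ≠ ⊤) (hI : ∀ ij ∈ I, F.cell o r ij ⊆ S) :
    (I.card : ℝ) * r ^ 2 ≤ (volume S).toReal := by
  have h1 : volume (⋃ ij ∈ I, F.cell o r ij) = ∑ ij ∈ I, volume (F.cell o r ij) :=
    measure_biUnion_finset (fun a _ b _ hab => F.cell_disjoint o hr hab)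
      (fun ij _ => F.measurableSet_cell o r ij)
  have h2 : volume (⋃ ij ∈ I, F.cell o r ij) ≤ volume S :=
    measure_mono (Set.iUnion₂_subset hI)
  rw [h1] at h2
  simp only [volume_cell, Finset.sum_const, nsmul_eq_mul] at h2
  have h3 := ENNReal.toReal_mono hS h2
  rw [ENNReal.toReal_mul, ENNReal.toReal_mul, ENNReal.toReal_ofReal hr.le] at h3
  simpa [sq] using h3

end Frame

/-- the standard frame -/
def stdFrame : Frame := ⟨1, 0, by norm_num⟩

theorem stdFrame_coord (o x : E2) : stdFrame.coord o x = (x 0 - o 0, x 1 - o 1) := by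
  simp [Frame.coord, Frame.inner_e₁, Frame.inner_e₂, stdFrame]

end Crest.Agent.Cyl326
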