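import Crest.Agent.Cyl.S0326.Patch

/-!
The coarse grid for S0326.
-/

set_option autoImplicit false

namespace Crest.Agent.Cyl326

open MeasureTheory Set Metric

instance : Inhabited Frame := ⟨stdFrame⟩

theorem Frame.finite_cells (F : Frame) (o : E2) {r : ℝ} (hr : 0 < r) {S : Set E2}
    (hS : Bornology.IsBounded S) : {ij : ℤ × ℤ | (F.cell o r ij ∩ S).Nonempty}.Finite := by
  obtain ⟨R, hR⟩ := hS.subset_closedBall o
  set N : ℤ := ⌈R / r⌉ + 1 with hN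
  refine ((Set.finite_Icc (-N) N).prod (Set.finite_Icc (-N) N)).subset ?_
  rintro ij ⟨x, hx, hxS⟩
  have hxR : ‖x - o‖ ≤ R := by
    have := hR hxS
    rwa [mem_closedBall, dist_eq_norm] at this
  simp only [Frame.cell, mem_preimage, mem_prod, mem_Ico, Frame.coord] at hx
  obtain ⟨⟨h1, h2⟩, h3, h4⟩ := hx
  have c1 := abs_le.mp ((F.abs_inner_e₁_le (x - o)).trans hxR)
  have c2 := abs_le.mp ((F.abs_inner_e₂_le (x - o)).trans hxR)
  have hNr : R / r ≤ (⌈R / r⌉ : ℤ) := Int.le_ceil _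
  have aux : ∀ (k : ℤ) (t : ℝ), -R ≤ t → t ≤ R → (k : ℝ) * r ≤ t → t < ((k : ℝ) + 1) * r →
      -N ≤ k ∧ k ≤ N := by
    intro k t ht1 ht2 hk1 hk2
    have a1 : (k : ℝ) ≤ R / r := by rw [le_div_iff₀ hr]; linarith
    have a2 : -(R / r) < (k : ℝ) + 1 := by
      rw [neg_lt, lt_div_iff₀ hr]
      linarith
    constructor
    · have : -((⌈R / r⌉ : ℤ) : ℝ) < (k : ℝ) + 1 := by linarith
      have : -⌈R / r⌉ < k + 1 := by exact_mod_cast this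
      omega
    · have : (k : ℝ) ≤ ((⌈R / r⌉ : ℤ) : ℝ) := by linarith
      have : k ≤ ⌈R / r⌉ := by exact_mod_cast this
      omega
  exact ⟨aux _ _ c1.1 c1.2 h1 h2, aux _ _ c2.1 c2.2 h3 h4⟩

theorem Frame.cell_diam (F : Frame) (o : E2) {r : ℝ} (ij : ℤ × ℤ) {x y : E2}
    (hx : x ∈ F.cell o r ij) (hy : y ∈ F.cell o r ij) : ‖x - y‖ ≤ 2 * r := by
  simp only [Frame.cell, mem_preimage, mem_prod, mem_Ico, Frame.coord] at hx hy
  obtain ⟨⟨h1, h2⟩, h3, h4⟩ := hx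
  obtain ⟨⟨g1, g2⟩, g3, g4⟩ := hy
  have e1 : inner ℝ (x - y) F.e₁ = inner ℝ (x - o) F.e₁ - inner ℝ (y - o) F.e₁ := by
    rw [← inner_sub_left]; congr 1; abel
  have e2 : inner ℝ (x - y) F.e₂ = inner ℝ (x - o) F.e₂ - inner ℝ (y - o) F.e₂ := by
    rw [← inner_sub_left]; congr 1; abel
  rw [F.expand (x - y)]
  refine (F.norm_comb_le _ _).trans ?_
  have a1 : |inner ℝ (x - y) F.e₁| ≤ r := by rw [e1, abs_le]; constructor <;> linarith
  have a2 : |inner ℝ (x - y) F.e₂| ≤ r := by rw [e2, abs_le]; constructor <;> linarith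
  linarith

/-- lower-left corner of a coarse cell -/
noncomputable def cellOrigin (δ : ℝ) (Q : ℤ × ℤ) : E2 := !₂[(Q.1 : ℝ) * δ, (Q.2 : ℝ) * δ]

theorem stdCell_subset_box (δ : ℝ) (Q : ℤ × ℤ) :
    stdFrame.cell 0 δ Q ⊆ stdFrame.box (cellOrigin δ Q) 0 δ 0 δ := by
  intro x hx
  simp only [Frame.cell, mem_preimage, mem_prod, mem_Ico, stdFrame_coord] at hx
  obtain ⟨⟨h1, h2⟩, h3, h4⟩ := hx
  rw [mem_stdBox_iff]
  simp only [cellOrigin] at *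
  simp at h1 h2 h3 h4 ⊢
  refine ⟨⟨h1, ?_⟩, h3, ?_⟩ <;> linarith

theorem exists_grid {D : Set E2} (hD : IsCompact D) {δ : ℝ} (hδ : 0 < δ) :
    ∃ 𝒬 : Finset (ℤ × ℤ), (∀ Q ∈ 𝒬, (stdFrame.cell 0 δ Q ∩ D).Nonempty) ∧
      (∀ p ∈ D, ∃ Q ∈ 𝒬, p ∈ stdFrame.cell 0 δ Q) ∧
      (𝒬.card : ℝ) * δ ^ 2 ≤ (volume (cthickening (2 * δ) D)).toReal := by
  have hfin := stdFrame.finite_cells 0 hδ hD.isBounded
  refine ⟨hfin.toFinset, ?_, ?_, ?_⟩
  · intro Q hQ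
    simpa using hQ
  · intro p hp
    obtain ⟨Q, hQ⟩ := stdFrame.exists_mem_cell 0 hδ p
    exact ⟨Q, by simpa using ⟨p, hQ, hp⟩, hQ⟩
  · refine stdFrame.card_mul_le 0 hδ _ _ hD.cthickening.measure_lt_top.ne ?_
    intro Q hQ x hx
    obtain ⟨p, hpQ, hpD⟩ : (stdFrame.cell 0 δ Q ∩ D).Nonempty := by simpa using hQ
    refine mem_cthickening_of_dist_le x p _ D hpD ?_
    rw [dist_eq_norm]
    exact stdFrame.cell_diam 0 Q hx hpQ

end Crest.Agent.Cyl326
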