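import Mathlib

/-!
Integer lattice covering lemma for S0326: the unit squares translated by the lattice
`{i (1, c) + j (b, 1)}` cover the plane as soon as `0 ≤ b c < 1`.
-/

set_option autoImplicit false

namespace Crest.Agent.Cyl326

theorem lattice_cover (b c : ℝ) (hbc : 0 ≤ b * c) (hbc1 : b * c < 1) (x y : ℝ) :
    ∃ i j : ℤ, 0 ≤ x - i - b * j ∧ x - i - b * j ≤ 1 ∧ 0 ≤ y - c * i - j ∧ y - c * i - j ≤ 1 := by
  set f : ℤ → ℝ := fun j => y - c * (⌊x - b * j⌋ : ℤ) - j with hf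
  have hk : 0 < 1 - b * c := by linarith
  -- bounds on `f`
  have hfl : ∀ j : ℤ, |c * (⌊x - b * j⌋ : ℤ) - c * (x - b * j)| ≤ |c| := by
    intro j
    rw [← mul_sub, abs_mul]
    have h1 := Int.floor_le (x - b * j)
    have h2 := Int.lt_floor_add_one (x - b * j)
    have : |((⌊x - b * j⌋ : ℤ) : ℝ) - (x - b * j)| ≤ 1 := by
      rw [abs_le]; constructor <;> linarith
    calc |c| * _ ≤ |c| * 1 := mul_le_mul_of_nonneg_left this (abs_nonneg _)
      _ = |c| := mul_one _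
  have hup : ∀ j : ℤ, f j ≤ (y - c * x + |c|) - j * (1 - b * c) := by
    intro j
    have := (abs_le.mp (hfl j)).1
    simp only [hf]
    nlinarith
  have hlo : ∀ j : ℤ, (y - c * x - |c|) - j * (1 - b * c) ≤ f j := by
    intro j
    have := (abs_le.mp (hfl j)).2
    simp only [hf]
    nlinarith
  -- steps are at least `-1`
  have hstep : ∀ j : ℤ, f j - 1 ≤ f (j + 1) := by
    intro j
    simp only [hf]
    push_cast
    have key : 0 ≤ c * ((⌊x - b * j⌋ : ℤ) : ℝ) - c * ((⌊x - b * ((j : ℝ) + 1)⌋ : ℤ) : ℝ) := by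
      rcases lt_trichotomy c 0 with hc | hc | hc
      · have hb : b ≤ 0 := by
          by_contra hb
          push Not at hb
          nlinarith
        have : ⌊x - b * j⌋ ≤ ⌊x - b * ((j : ℝ) + 1)⌋ := Int.floor_le_floor (by nlinarith)
        have : ((⌊x - b * j⌋ : ℤ) : ℝ) ≤ ((⌊x - b * ((j : ℝ) + 1)⌋ : ℤ) : ℝ) := by exact_mod_cast this
        nlinarith
      · simp [hc]
      · have hb : 0 ≤ b := by
          by_contra hb
          push Not at hb
          nlinarith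
        have : ⌊x - b * ((j : ℝ) + 1)⌋ ≤ ⌊x - b * j⌋ := Int.floor_le_floor (by nlinarith)
        have : ((⌊x - b * ((j : ℝ) + 1)⌋ : ℤ) : ℝ) ≤ ((⌊x - b * j⌋ : ℤ) : ℝ) := by exact_mod_cast this
        nlinarith
    linarith
  -- least `j` with `f j ≤ 1`
  obtain ⟨j₀, hj₀, hmin⟩ := Int.exists_least_of_bdd (P := fun j => f j ≤ 1)
    ⟨⌊(y - c * x - |c| - 1) / (1 - b * c)⌋, by
      intro z hz
      have h1 := hlo z
      have h2 : (y - c * x - |c| - 1) / (1 - b * c) ≤ z := by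
        rw [div_le_iff₀ hk]; linarith
      exact Int.floor_le_iff.mpr (by linarith) |> fun h => h⟩
    ⟨⌈(y - c * x + |c| - 1) / (1 - b * c)⌉, by
      have h1 := hup ⌈(y - c * x + |c| - 1) / (1 - b * c)⌉
      have h2 := Int.le_ceil ((y - c * x + |c| - 1) / (1 - b * c))
      rw [div_le_iff₀ hk] at h2
      show f _ ≤ 1
      linarith⟩
  have hprev : 1 < f (j₀ - 1) := by
    by_contra h
    push Not at h
    have := hmin (j₀ - 1) h
    omega
  have hs := hstep (j₀ - 1)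
  rw [sub_add_cancel] at hs
  refine ⟨⌊x - b * j₀⌋, j₀, ?_, ?_, ?_, ?_⟩
  · have := Int.floor_le (x - b * j₀); linarith
  · have := Int.lt_floor_add_one (x - b * j₀); linarith
  · have : 0 ≤ f j₀ := by linarith
    simpa [hf] using this
  · simpa [hf] using hj₀

/-- Inverting `I + s A` in frame coordinates. -/
theorem inverse_bound {β γ s κ L M u₁ u₂ w₁ w₂ W : ℝ} (hκ : 0 < κ) (hL : 0 ≤ L)
    (hs : |s| ≤ L) (hβ : |β| ≤ M) (hγ : |γ| ≤ M)
    (hdet : κ ≤ 1 - s ^ 2 * (β * γ))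
    (h₁ : u₁ + s * β * u₂ = w₁) (h₂ : u₂ + s * γ * u₁ = w₂) (hw₁ : |w₁| ≤ W) (hw₂ : |w₂| ≤ W) :
    |u₁| ≤ (1 + L * M) * W / κ ∧ |u₂| ≤ (1 + L * M) * W / κ := by
  have hM : 0 ≤ M := (abs_nonneg _).trans hβ
  have hW : 0 ≤ W := (abs_nonneg _).trans hw₁
  have e₁ : u₁ * (1 - s ^ 2 * (β * γ)) = w₁ - s * β * w₂ := by rw [← h₁, ← h₂]; ring
  have e₂ : u₂ * (1 - s ^ 2 * (β * γ)) = w₂ - s * γ * w₁ := by rw [← h₁, ← h₂]; ring
  have hsβ : |s * β| ≤ L * M := by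
    rw [abs_mul]; exact mul_le_mul hs hβ (abs_nonneg _) hL
  have hsγ : |s * γ| ≤ L * M := by
    rw [abs_mul]; exact mul_le_mul hs hγ (abs_nonneg _) hL
  have b₁ : |w₁ - s * β * w₂| ≤ (1 + L * M) * W := by
    calc |w₁ - s * β * w₂| ≤ |w₁| + |s * β * w₂| := abs_sub _ _
      _ = |w₁| + |s * β| * |w₂| := by rw [abs_mul]
      _ ≤ W + (L * M) * W := add_le_add hw₁ (mul_le_mul hsβ hw₂ (abs_nonneg _) (by positivity))
      _ = (1 + L * M) * W := by ring
  have b₂ : |w₂ - s * γ * w₁| ≤ (1 + L * M) * W := by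
    calc |w₂ - s * γ * w₁| ≤ |w₂| + |s * γ * w₁| := abs_sub _ _
      _ = |w₂| + |s * γ| * |w₁| := by rw [abs_mul]
      _ ≤ W + (L * M) * W := add_le_add hw₂ (mul_le_mul hsγ hw₁ (abs_nonneg _) (by positivity))
      _ = (1 + L * M) * W := by ring
  constructor
  · rw [le_div_iff₀ hκ]
    calc |u₁| * κ ≤ |u₁| * (1 - s ^ 2 * (β * γ)) := mul_le_mul_of_nonneg_left hdet (abs_nonneg _)
      _ = |u₁ * (1 - s ^ 2 * (β * γ))| := by
          rw [abs_mul, abs_of_pos (lt_of_lt_of_le hκ hdet)]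
      _ ≤ _ := by rw [e₁]; exact b₁
  · rw [le_div_iff₀ hκ]
    calc |u₂| * κ ≤ |u₂| * (1 - s ^ 2 * (β * γ)) := mul_le_mul_of_nonneg_left hdet (abs_nonneg _)
      _ = |u₂ * (1 - s ^ 2 * (β * γ))| := by
          rw [abs_mul, abs_of_pos (lt_of_lt_of_le hκ hdet)]
      _ ≤ _ := by rw [e₂]; exact b₂

end Crest.Agent.Cyl326
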