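import Crest.Agent.Cyl.S0326.Frame

/-!
Trace-free endomorphisms of the plane have zero diagonal in a suitable orthonormal frame.
-/

set_option autoImplicit false

namespace Crest.Agent.Cyl326

open MeasureTheory Set

theorem trace_frame (A : E2 →L[ℝ] E2) (F : Frame) :
    LinearMap.trace ℝ _ A.toLinearMap = inner ℝ (A F.e₁) F.e₁ + inner ℝ (A F.e₂) F.e₂ := by
  rw [LinearMap.trace_eq_sum_inner _ F.basis, Fin.sum_univ_two, F.basis_zero, F.basis_one]
  simp [real_inner_comm]

theorem det_frame (A : E2 →L[ℝ] E2) (F : Frame) :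
    LinearMap.det A.toLinearMap = inner ℝ (A F.e₁) F.e₁ * inner ℝ (A F.e₂) F.e₂ -
      inner ℝ (A F.e₂) F.e₁ * inner ℝ (A F.e₁) F.e₂ := by
  rw [← LinearMap.det_toMatrix F.basis.toBasis, Matrix.det_fin_two]
  simp only [LinearMap.toMatrix_apply, OrthonormalBasis.coe_toBasis_repr_apply,
    OrthonormalBasis.coe_toBasis, OrthonormalBasis.repr_apply_apply, F.basis_zero, F.basis_one]
  simp [real_inner_comm]

noncomputable def angleFrame (θ : ℝ) : Frame := ⟨Real.cos θ, Real.sin θ, Real.cos_sq_add_sin_sq θ⟩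

theorem exists_frame (A : E2 →L[ℝ] E2) (htr : LinearMap.trace ℝ _ A.toLinearMap = 0) :
    ∃ F : Frame, inner ℝ (A F.e₁) F.e₁ = 0 ∧ inner ℝ (A F.e₂) F.e₂ = 0 := by
  set q : ℝ → ℝ := fun θ => inner ℝ (A (angleFrame θ).e₁) (angleFrame θ).e₁ with hq
  have hcont : Continuous q := by
    have h1 : Continuous fun θ => (angleFrame θ).e₁ := by
      unfold angleFrame Frame.e₁
      simp only
      refine (PiLp.continuous_toLp 2 _).comp ?_
      refine continuous_pi ?_
      intro i
      fin_cases i
      · simpa using Real.continuous_cos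
      · simpa using Real.continuous_sin
    exact (A.continuous.comp h1).inner h1
  have h0 : q 0 + q (Real.pi / 2) = 0 := by
    have := trace_frame A (angleFrame 0)
    rw [htr] at this
    have e : (angleFrame 0).e₂ = (angleFrame (Real.pi / 2)).e₁ := by
      simp [angleFrame, Frame.e₁, Frame.e₂]
    rw [e] at this
    simp only [hq]
    linarith
  have : (0 : ℝ) ∈ Set.range q := by
    rcases le_total (q 0) 0 with h | h
    · exact mem_range_of_exists_le_of_exists_ge hcont ⟨0, h⟩ ⟨Real.pi / 2, by linarith⟩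
    · exact mem_range_of_exists_le_of_exists_ge hcont ⟨Real.pi / 2, by linarith⟩ ⟨0, h⟩
  obtain ⟨θ, hθ⟩ := this
  refine ⟨angleFrame θ, hθ, ?_⟩
  have := trace_frame A (angleFrame θ)
  rw [htr] at this
  simp only [hq] at hθ
  linarith

end Crest.Agent.Cyl326
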