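import Crest.Agent.Cyl.S0326.Grid
import Crest.Agent.Cyl.S0326.Analysis

/-!
The Riemann-sum type estimate for S0326.
-/

set_option autoImplicit false

namespace Crest.Agent.Cyl326

open MeasureTheory Set Metric

theorem integrableOn_JfV {D : Set E2} (hD : IsCompact D) {V : E2 → E2} (hVc : ContinuousOn V D)
    (h : ℝ) : IntegrableOn (fun p => Jf h (V p)) D volume :=
  ((continuous_Jf h).comp_continuousOn hVc).integrableOn_compact hD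

theorem sum_bound {D : Set E2} (hD : IsCompact D) {V : E2 → E2} (hVc : ContinuousOn V D)
    {h δ r q σ ε₁ : ℝ} (hδ : 0 < δ) (hq : 0 ≤ q) (hσ : 0 ≤ σ)
    (𝒬 : Finset (ℤ × ℤ)) (hcov : ∀ p ∈ D, ∃ Q ∈ 𝒬, p ∈ stdFrame.cell 0 δ Q)
    (hN : (𝒬.card : ℝ) * δ ^ 2 ≤ volume.real D + ε₁)
    (J : ℤ × ℤ → ℝ) (hJ1 : ∀ Q ∈ 𝒬, J Q ≤ 1) (hJ0 : ∀ Q ∈ 𝒬, 0 ≤ J Q)
    (hJV : ∀ Q ∈ 𝒬, ∀ x ∈ stdFrame.cell 0 δ Q ∩ D, J Q - σ ≤ Jf h (V x))
    (I : ℤ × ℤ → Finset (ℤ × ℤ)) (w : ℤ × ℤ → ℤ × ℤ → ℝ)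
    (hw : ∀ Q ∈ 𝒬, ∀ ij ∈ I Q, w Q ij ≤ J Q + σ)
    (hcard : ∀ Q ∈ 𝒬, ((I Q).card : ℝ) * r ^ 2 ≤ q * δ ^ 2) :
    ∑ Q ∈ 𝒬, ∑ ij ∈ I Q, r ^ 2 * w Q ij ≤
      q * ((∫ p in D, Jf h (V p)) + 2 * σ * volume.real D + ε₁ + σ * ε₁) := by
  set v := volume.real D with hv
  set G : E2 → ℝ := fun x => Jf h (V x) + (σ - 1) with hG
  have hJint := integrableOn_JfV hD hVc h
  have hDfin : volume D ≠ ⊤ := hD.measure_lt_top.ne
  have hGint : IntegrableOn G D volume := hJint.add (integrableOn_const hDfin)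
  -- step 1
  have s1 : ∀ Q ∈ 𝒬, ∑ ij ∈ I Q, r ^ 2 * w Q ij ≤ q * (δ ^ 2 * (J Q + σ)) := by
    intro Q hQ
    calc ∑ ij ∈ I Q, r ^ 2 * w Q ij ≤ ∑ _ij ∈ I Q, r ^ 2 * (J Q + σ) :=
          Finset.sum_le_sum fun ij hij => mul_le_mul_of_nonneg_left (hw Q hQ ij hij) (sq_nonneg r)
      _ = ((I Q).card : ℝ) * r ^ 2 * (J Q + σ) := by
          rw [Finset.sum_const, nsmul_eq_mul]; ring
      _ ≤ q * δ ^ 2 * (J Q + σ) :=
          mul_le_mul_of_nonneg_right (hcard Q hQ) (add_nonneg (hJ0 Q hQ) hσ)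
      _ = _ := by ring
  -- step 4
  have hDeq : D = ⋃ Q ∈ 𝒬, (stdFrame.cell 0 δ Q ∩ D) := by
    ext p
    simp only [mem_iUnion, mem_inter_iff, exists_prop]
    constructor
    · intro hp
      obtain ⟨Q, hQ, hpQ⟩ := hcov p hp
      exact ⟨Q, hQ, hpQ, hp⟩
    · rintro ⟨Q, _, _, hp⟩
      exact hp
  have hmeas : ∀ Q, MeasurableSet (stdFrame.cell 0 δ Q ∩ D) := fun Q =>
    (stdFrame.measurableSet_cell 0 δ Q).inter hD.measurableSet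
  have s4a : ∫ x in D, G x = ∑ Q ∈ 𝒬, ∫ x in stdFrame.cell 0 δ Q ∩ D, G x := by
    conv_lhs => rw [hDeq]
    refine integral_biUnion_finset 𝒬 (fun Q _ => hmeas Q) ?_ (fun Q _ => hGint.mono_set inter_subset_right)
    intro Q _ Q' _ hne
    exact (stdFrame.cell_disjoint 0 hδ hne).mono inter_subset_left inter_subset_left
  have s4b : ∀ Q ∈ 𝒬, δ ^ 2 * (J Q - 1) ≤ ∫ x in stdFrame.cell 0 δ Q ∩ D, G x := by
    intro Q hQ
    have hfin : volume (stdFrame.cell 0 δ Q ∩ D) ≠ ⊤ :=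
      (lt_of_le_of_lt (measure_mono inter_subset_right) hD.measure_lt_top).ne
    have h1 : (J Q - 1) * volume.real (stdFrame.cell 0 δ Q ∩ D) ≤
        ∫ x in stdFrame.cell 0 δ Q ∩ D, G x := by
      refine setIntegral_ge_of_const_le_real (hmeas Q) hfin ?_ (hGint.mono_set inter_subset_right)
      intro x hx
      have := hJV Q hQ x hx
      simp only [hG]
      linarith
    have h2 : volume.real (stdFrame.cell 0 δ Q ∩ D) ≤ δ ^ 2 := by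
      have hc : volume (stdFrame.cell 0 δ Q) = ENNReal.ofReal δ * ENNReal.ofReal δ :=
        stdFrame.volume_cell 0 δ Q
      have : volume.real (stdFrame.cell 0 δ Q ∩ D) ≤ volume.real (stdFrame.cell 0 δ Q) :=
        measureReal_mono inter_subset_left (by rw [hc]; exact ENNReal.mul_ne_top (by simp) (by simp))
      refine this.trans (le_of_eq ?_)
      rw [measureReal_def, hc, ENNReal.toReal_mul, ENNReal.toReal_ofReal hδ.le]
      ring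
    have h3 : δ ^ 2 * (J Q - 1) ≤ (J Q - 1) * volume.real (stdFrame.cell 0 δ Q ∩ D) := by
      have : J Q - 1 ≤ 0 := by linarith [hJ1 Q hQ]
      nlinarith
    exact h3.trans h1
  have s4c : ∫ x in D, G x = (∫ p in D, Jf h (V p)) + (σ - 1) * v := by
    simp only [hG]
    rw [integral_add hJint (integrableOn_const hDfin), setIntegral_const, smul_eq_mul]
    ring
  have s4 : ∑ Q ∈ 𝒬, δ ^ 2 * (J Q - 1) ≤ (∫ p in D, Jf h (V p)) + (σ - 1) * v := by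
    rw [← s4c, s4a]
    exact Finset.sum_le_sum s4b
  -- step 3
  have s3 : ∑ Q ∈ 𝒬, δ ^ 2 * (J Q + σ) = ∑ Q ∈ 𝒬, δ ^ 2 * (J Q - 1) + (1 + σ) * ((𝒬.card : ℝ) * δ ^ 2) := by
    have : ∀ Q ∈ 𝒬, δ ^ 2 * (J Q + σ) = δ ^ 2 * (J Q - 1) + (1 + σ) * δ ^ 2 := by
      intro Q _; ring
    rw [Finset.sum_congr rfl this, Finset.sum_add_distrib, Finset.sum_const, nsmul_eq_mul]
    ring
  calc ∑ Q ∈ 𝒬, ∑ ij ∈ I Q, r ^ 2 * w Q ij ≤ ∑ Q ∈ 𝒬, q * (δ ^ 2 * (J Q + σ)) :=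
        Finset.sum_le_sum s1
    _ = q * ∑ Q ∈ 𝒬, δ ^ 2 * (J Q + σ) := by rw [Finset.mul_sum]
    _ ≤ q * ((∫ p in D, Jf h (V p)) + 2 * σ * v + ε₁ + σ * ε₁) := by
        refine mul_le_mul_of_nonneg_left ?_ hq
        rw [s3]
        have : (1 + σ) * ((𝒬.card : ℝ) * δ ^ 2) ≤ (1 + σ) * (v + ε₁) :=
          mul_le_mul_of_nonneg_left hN (by linarith)
        nlinarith

end Crest.Agent.Cyl326
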