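import Crest.Agent.Cyl.S0326.Grid
import Crest.Agent.Cyl.S0326.Analysis
import Crest.Agent.Cyl.S0326.SumBound

/-!
Assembly of S0326.
-/

set_option autoImplicit false

namespace Crest.Agent.Cyl326

open MeasureTheory Set Metric

theorem percell {D : Set E2} {V : E2 → E2} {L κ M η₁ δ δ₁ r ρ : ℝ}
    (hL : 0 < L) (hκ : 0 < κ)
    (htr : ∀ p ∈ D, LinearMap.trace ℝ _ (fderiv ℝ V p).toLinearMap = 0)
    (hdet0 : ∀ p ∈ D, LinearMap.det (fderiv ℝ V p).toLinearMap ≤ 0)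
    (hM : ∀ p ∈ D, ‖fderiv ℝ V p‖ ≤ M)
    (hκdet : ∀ p ∈ D, κ ≤ 1 + L ^ 2 * LinearMap.det (fderiv ℝ V p).toLinearMap)
    (hlin : ∀ p₀ ∈ D, ∀ p : E2, ‖p - p₀‖ ≤ δ₁ →
      ‖V p - V p₀ - fderiv ℝ V p₀ (p - p₀)‖ ≤ η₁ * ‖p - p₀‖)
    (hη₁ : 0 ≤ η₁) (hδ : 0 < δ) (hδδ₁ : 2 * δ ≤ δ₁) (hr : 0 < r)
    (hρ : 2 * ((1 + L * M) * (L * (η₁ * (2 * δ)) + r) / κ) ≤ ρ)
    (Q : ℤ × ℤ) (hQ : (stdFrame.cell 0 δ Q ∩ D).Nonempty) :
    ∃ (p₀ : E2) (F : Frame) (I : Finset (ℤ × ℤ)), p₀ ∈ stdFrame.cell 0 δ Q ∩ D ∧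
      (∀ p ∈ stdFrame.cell 0 δ Q ∩ D, ∀ s : ℝ, |s| ≤ L → ∃ ij ∈ I,
        ∃ x ∈ Icc (0 : ℝ) 1, ∃ y ∈ Icc (0 : ℝ) 1,
        p + s • V p = corner F p₀ r ij + x • (r • F.e₁) + y • (r • F.e₂) +
          s • (V p₀ + fderiv ℝ V p₀ (corner F p₀ r ij - p₀))) ∧
      (I.card : ℝ) * r ^ 2 ≤ (δ + 2 * ρ + 4 * r) ^ 2 ∧
      (∀ ij ∈ I, ‖corner F p₀ r ij - p₀‖ ≤ 2 * (δ + ρ)) := by
  obtain ⟨p₀, hp₀Q, hp₀D⟩ := hQ
  have hVS : ∀ p ∈ stdFrame.cell 0 δ Q ∩ D,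
      ‖V p - V p₀ - fderiv ℝ V p₀ (p - p₀)‖ ≤ η₁ * (2 * δ) := by
    intro p hp
    have hd : ‖p - p₀‖ ≤ 2 * δ := stdFrame.cell_diam 0 Q hp.1 hp₀Q
    exact (hlin p₀ hp₀D p (hd.trans hδδ₁)).trans (mul_le_mul_of_nonneg_left hd hη₁)
  obtain ⟨F, I, h1, h2, h3⟩ := patch p₀ (V p₀) (fderiv ℝ V p₀) (htr p₀ hp₀D) (hdet0 p₀ hp₀D) hL hκ
    (hκdet p₀ hp₀D) (hM p₀ hp₀D) hr (stdFrame.cell 0 δ Q ∩ D) V hVS (cellOrigin δ Q) hδ.le
    (inter_subset_left.trans (stdCell_subset_box δ Q)) hρ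
  refine ⟨p₀, F, I, ⟨hp₀Q, hp₀D⟩, h1, h2, ?_⟩
  intro ij hij
  have a := h3 ij hij
  have b := stdCell_subset_box δ Q hp₀Q
  rw [mem_stdBox_iff] at a b
  obtain ⟨⟨a1, a2⟩, a3, a4⟩ := a
  obtain ⟨⟨b1, b2⟩, b3, b4⟩ := b
  refine (norm_le_abs_add _).trans ?_
  simp only [PiLp.sub_apply]
  have c0 : |(corner F p₀ r ij) 0 - p₀ 0| ≤ δ + ρ := by rw [abs_le]; constructor <;> linarith
  have c1 : |(corner F p₀ r ij) 1 - p₀ 1| ≤ δ + ρ := by rw [abs_le]; constructor <;> linarith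
  linarith

theorem final_arith {ε v Int T q σ ε₁ ε₂ : ℝ} (hv : 0 ≤ v) (hInt0 : 0 ≤ Int)
    (hInt : Int ≤ v) (hσ0 : 0 ≤ σ) (hσ : σ ≤ ε / 16) (hσv : σ * v ≤ ε / 16)
    (hε₁0 : 0 ≤ ε₁) (hε₁1 : ε₁ ≤ 1) (hε₁ : ε₁ ≤ ε / 8) (hε₂0 : 0 ≤ ε₂) (hε₂1 : ε₂ ≤ 1)
    (hε₂ : ε₂ * v ≤ ε / 4) (hq : q ≤ 1 + ε₂)
    (hT : T ≤ q * (Int + 2 * σ * v + ε₁ + σ * ε₁)) : T ≤ Int + ε := by
  have hX0 : 0 ≤ 2 * σ * v + ε₁ + σ * ε₁ := by positivity
  have hσε : σ * ε₁ ≤ ε / 16 := by nlinarith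
  have hX : 2 * σ * v + ε₁ + σ * ε₁ ≤ 5 * ε / 16 := by linarith
  have h1 : q * (Int + 2 * σ * v + ε₁ + σ * ε₁) ≤ (1 + ε₂) * (Int + 2 * σ * v + ε₁ + σ * ε₁) :=
    mul_le_mul_of_nonneg_right hq (by linarith)
  have h2 : ε₂ * Int ≤ ε / 4 := (mul_le_mul_of_nonneg_left hInt hε₂0).trans hε₂
  have h3 : ε₂ * (2 * σ * v + ε₁ + σ * ε₁) ≤ 1 * (2 * σ * v + ε₁ + σ * ε₁) :=
    mul_le_mul_of_nonneg_right hε₂1 hX0
  nlinarith


theorem exists_thick {D : Set E2} (hD : IsCompact D) {ε₁ : ℝ} (hε₁ : 0 < ε₁) :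
    ∃ δ₂ : ℝ, 0 < δ₂ ∧ ∀ t : ℝ, 0 ≤ t → t < δ₂ →
      (volume (cthickening t D)).toReal ≤ volume.real D + ε₁ := by
  have ht := tendsto_measure_cthickening_of_isCompact (μ := (volume : Measure E2)) hD
  have hfin : volume D ≠ ⊤ := hD.measure_lt_top.ne
  have hlt : volume D < volume D + ENNReal.ofReal ε₁ :=
    ENNReal.lt_add_right hfin (by simpa using hε₁)
  have hev := ht.eventually_lt_const hlt
  rw [Metric.eventually_nhds_iff] at hev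
  obtain ⟨δ₂, hδ₂, H⟩ := hev
  refine ⟨δ₂, hδ₂, ?_⟩
  intro t ht0 ht
  have := H (y := t) (by rw [Real.dist_eq, sub_zero, abs_of_nonneg ht0]; exact ht)
  have h2 := ENNReal.toReal_mono (ENNReal.add_ne_top.mpr ⟨hfin, ENNReal.ofReal_ne_top⟩) this.le
  rw [ENNReal.toReal_add hfin ENNReal.ofReal_ne_top, ENNReal.toReal_ofReal hε₁.le] at h2
  exact h2

theorem main_finset (D : Set E2) (hD : IsCompact D) (V : E2 → E2) (U : Set E2)
    (hU : IsOpen U) (hDU : D ⊆ U) (hV : ContDiffOn ℝ 1 V U) (L h : ℝ) (hL : 0 < L)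
    (htr : ∀ p ∈ D, LinearMap.trace ℝ _ (fderiv ℝ V p).toLinearMap = 0)
    (hdet : ∀ p ∈ D, -(L ^ 2)⁻¹ < LinearMap.det (fderiv ℝ V p).toLinearMap ∧
      LinearMap.det (fderiv ℝ V p).toLinearMap ≤ 0)
    (ε : ℝ) (hε : 0 < ε) :
    ∃ (s : Finset (Σ _ : ℤ × ℤ, ℤ × ℤ)) (c a b g : (Σ _ : ℤ × ℤ, ℤ × ℤ) → E2),
      (∀ i, a i ≠ 0 ∧ ‖b i‖ = ‖a i‖ ∧ inner ℝ (a i) (b i) = 0) ∧
      (∀ p ∈ D, ∀ t : ℝ, |t| ≤ L → ∃ i ∈ s, ∃ x ∈ Icc (0 : ℝ) 1, ∃ y ∈ Icc (0 : ℝ) 1,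
        p + t • V p = c i + x • a i + y • b i + t • g i) ∧
      ∑ i ∈ s, ‖a i‖ ^ 2 * Jf h (g i) ≤ (∫ p in D, Jf h (V p)) + ε := by
  obtain ⟨M, κ, R, hκ, hM0, hM, hκdet, hR⟩ := exists_consts hD hU hDU hV hL (fun p hp => (hdet p hp).1)
  have hVc : ContinuousOn V D := hV.continuousOn.mono hDU
  set v := volume.real D with hv
  have hv0 : 0 ≤ v := measureReal_nonneg
  -- parameters
  set σ := ε / (16 * (v + 1)) with hσdef
  have hσ0 : 0 < σ := by positivity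
  have hσ : σ ≤ ε / 16 := by
    rw [hσdef]
    apply div_le_div_of_nonneg_left hε.le (by norm_num) (by linarith)
  have hσv : σ * v ≤ ε / 16 := by
    rw [hσdef, div_mul_eq_mul_div, div_le_div_iff₀ (by positivity) (by norm_num)]
    nlinarith
  set ε₁ := min 1 (ε / 8) with hε₁def
  have hε₁0 : 0 < ε₁ := by positivity
  set ε₂ := min 1 (ε / (4 * (v + 1))) with hε₂def
  have hε₂0 : 0 < ε₂ := by positivity
  have hε₂1 : ε₂ ≤ 1 := min_le_left _ _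
  have hε₂v : ε₂ * v ≤ ε / 4 := by
    have h1 : ε₂ ≤ ε / (4 * (v + 1)) := min_le_right _ _
    have h2 : ε / (4 * (v + 1)) * v ≤ ε / 4 := by
      rw [div_mul_eq_mul_div, div_le_div_iff₀ (by positivity) (by norm_num)]
      nlinarith
    exact (mul_le_mul_of_nonneg_right h1 hv0).trans h2
  set θ₀ := ε₂ / 3 with hθ₀def
  have hθ₀0 : 0 < θ₀ := by positivity
  have hθ₀1 : θ₀ ≤ 1 := by rw [hθ₀def]; linarith
  set q := (1 + θ₀) ^ 2 with hqdef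
  have hq : q ≤ 1 + ε₂ := by
    have : ε₂ = 3 * θ₀ := by rw [hθ₀def]; ring
    rw [hqdef, this]; nlinarith
  set C₁ := 2 * (1 + L * M) / κ with hC₁def
  have hC₁0 : 0 < C₁ := by positivity
  set lam := θ₀ / (4 * C₁ + 8) with hlamdef
  have hlam0 : 0 < lam := by positivity
  set η₁ := θ₀ / (8 * C₁ * L + 1) with hη₁def
  have hη₁0 : 0 < η₁ := by positivity
  set μ := C₁ * (2 * L * η₁ + lam) with hμdef
  have hμ0 : 0 < μ := by positivity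
  have hθ : 2 * μ + 4 * lam ≤ θ₀ := by
    have e1 : (2 * C₁ + 4) * lam = θ₀ / 2 := by
      rw [hlamdef]; field_simp; ring
    have e2 : 4 * C₁ * L * η₁ ≤ θ₀ / 2 := by
      rw [hη₁def, mul_div_assoc', div_le_div_iff₀ (by positivity) (by norm_num)]
      nlinarith [mul_pos (mul_pos hC₁0 hL) hθ₀0]
    rw [hμdef]
    nlinarith
  obtain ⟨δ₁, hδ₁, hlin⟩ := exists_lin hD hU hDU hV hη₁0
  obtain ⟨τ, hτ, hJ⟩ := Jf_close h R σ hσ0
  obtain ⟨δ₂, hδ₂, hthick⟩ := exists_thick hD hε₁0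
  set K₂ := 2 * (η₁ + M) + 2 * M * (1 + μ) + 1 with hK₂def
  have hK₂0 : 0 < K₂ := by positivity
  set δ := min (δ₁ / 2) (min (δ₂ / 4) (τ / K₂)) with hδdef
  have hδ0 : 0 < δ := by positivity
  have hδa : 2 * δ ≤ δ₁ := by
    have : δ ≤ δ₁ / 2 := min_le_left _ _
    linarith
  have hδb : 2 * δ < δ₂ := by
    have : δ ≤ δ₂ / 4 := (min_le_right _ _).trans (min_le_left _ _)
    linarith
  have hδc : K₂ * δ ≤ τ := by
    have : δ ≤ τ / K₂ := (min_le_right _ _).trans (min_le_right _ _)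
    rw [le_div_iff₀ hK₂0] at this
    linarith
  set r := lam * δ with hrdef
  have hr0 : 0 < r := by positivity
  set ρ := μ * δ with hρdef
  have hρ : 2 * ((1 + L * M) * (L * (η₁ * (2 * δ)) + r) / κ) ≤ ρ := by
    apply le_of_eq
    rw [hρdef, hμdef, hC₁def, hrdef]
    field_simp
  obtain ⟨𝒬, h𝒬ne, h𝒬cov, h𝒬card⟩ := exists_grid hD hδ0
  have hcell := fun Q hQ => percell (D := D) (V := V) hL hκ htr (fun p hp => (hdet p hp).2) hM hκdet hlin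
    hη₁0.le hδ0 hδa hr0 hρ Q hQ
  choose! p₀ F I hp₀ hcov hcard hdist using hcell
  refine ⟨𝒬.sigma I, fun x => corner (F x.1) (p₀ x.1) r x.2, fun x => r • (F x.1).e₁,
    fun x => r • (F x.1).e₂,
    fun x => V (p₀ x.1) + fderiv ℝ V (p₀ x.1) (corner (F x.1) (p₀ x.1) r x.2 - p₀ x.1), ?_, ?_, ?_⟩
  · intro x
    refine ⟨?_, ?_, ?_⟩
    · intro h0
      have := congrArg norm h0
      rw [norm_smul, (F x.1).norm_e₁, norm_zero, mul_one, Real.norm_eq_abs, abs_of_pos hr0] at this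
      exact hr0.ne' this
    · rw [norm_smul, norm_smul, (F x.1).norm_e₁, (F x.1).norm_e₂]
    · rw [inner_smul_left, inner_smul_right, (F x.1).e₁_e₂]; simp
  · intro p hp t ht
    obtain ⟨Q, hQ, hpQ⟩ := h𝒬cov p hp
    obtain ⟨ij, hij, x, hx, y, hy, e⟩ := hcov Q (h𝒬ne Q hQ) p ⟨hpQ, hp⟩ t ht
    exact ⟨⟨Q, ij⟩, Finset.mem_sigma.mpr ⟨hQ, hij⟩, x, hx, y, hy, e⟩
  · have hnorm : ∀ x : (Σ _ : ℤ × ℤ, ℤ × ℤ), ‖r • (F x.1).e₁‖ ^ 2 = r ^ 2 := by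
      intro x
      rw [norm_smul, (F x.1).norm_e₁, mul_one, Real.norm_eq_abs, sq_abs]
    simp only [hnorm]
    rw [Finset.sum_sigma]
    have hsb := sum_bound hD hVc (h := h) (δ := δ) (r := r) (q := q) (σ := σ) (ε₁ := ε₁) hδ0
      (by positivity) hσ0.le 𝒬 h𝒬cov (h𝒬card.trans (hthick _ (by positivity) hδb))
      (fun Q => Jf h (V (p₀ Q))) (fun Q _ => Jf_le_one _ _) (fun Q _ => (Jf_pos _ _).le)
      (by
        intro Q hQ x hx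
        have hp := hp₀ Q (h𝒬ne Q hQ)
        have hd : ‖x - p₀ Q‖ ≤ 2 * δ := stdFrame.cell_diam 0 Q hx.1 hp.1
        have h1 := hlin (p₀ Q) hp.2 x (hd.trans hδa)
        have h2 : ‖fderiv ℝ V (p₀ Q) (x - p₀ Q)‖ ≤ M * (2 * δ) :=
          ((fderiv ℝ V (p₀ Q)).le_opNorm _).trans
            (mul_le_mul (hM _ hp.2) hd (norm_nonneg _) hM0)
        have h3 : ‖V x - V (p₀ Q)‖ ≤ τ := by
          calc ‖V x - V (p₀ Q)‖ = ‖(V x - V (p₀ Q) - fderiv ℝ V (p₀ Q) (x - p₀ Q)) +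
                fderiv ℝ V (p₀ Q) (x - p₀ Q)‖ := by congr 1; abel
            _ ≤ _ := norm_add_le _ _
            _ ≤ η₁ * (2 * δ) + M * (2 * δ) :=
                add_le_add (h1.trans (mul_le_mul_of_nonneg_left hd hη₁0.le)) h2
            _ ≤ K₂ * δ := by
                rw [hK₂def]
                nlinarith [mul_nonneg (mul_nonneg hM0 hμ0.le) hδ0.le, mul_nonneg hM0 hδ0.le]
            _ ≤ τ := hδc
        have := abs_le.mp (hJ (V (p₀ Q)) (V x) (hR _ hp.2) h3)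
        linarith [this.1])
      I (fun Q ij => Jf h (V (p₀ Q) + fderiv ℝ V (p₀ Q) (corner (F Q) (p₀ Q) r ij - p₀ Q)))
      (by
        intro Q hQ ij hij
        have hp := hp₀ Q (h𝒬ne Q hQ)
        have hd := hdist Q (h𝒬ne Q hQ) ij hij
        have h3 : ‖(V (p₀ Q) + fderiv ℝ V (p₀ Q) (corner (F Q) (p₀ Q) r ij - p₀ Q)) - V (p₀ Q)‖ ≤ τ := by
          rw [add_sub_cancel_left]
          calc _ ≤ ‖fderiv ℝ V (p₀ Q)‖ * ‖corner (F Q) (p₀ Q) r ij - p₀ Q‖ :=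
                (fderiv ℝ V (p₀ Q)).le_opNorm _
            _ ≤ M * (2 * (δ + ρ)) := mul_le_mul (hM _ hp.2) hd (norm_nonneg _) hM0
            _ ≤ K₂ * δ := by
                rw [hK₂def, hρdef]
                nlinarith [mul_nonneg hη₁0.le hδ0.le, mul_nonneg hM0 hδ0.le]
            _ ≤ τ := hδc
        have := abs_le.mp (hJ (V (p₀ Q)) _ (hR _ hp.2) h3)
        linarith [this.2])
      (by
        intro Q hQ
        refine (hcard Q (h𝒬ne Q hQ)).trans ?_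
        have e : δ + 2 * ρ + 4 * r = δ * (1 + (2 * μ + 4 * lam)) := by rw [hρdef, hrdef]; ring
        rw [e, mul_pow, hqdef, mul_comm]
        refine mul_le_mul_of_nonneg_right ?_ (sq_nonneg δ)
        exact pow_le_pow_left₀ (by positivity) (by linarith) 2)
    have hInt0 : 0 ≤ ∫ p in D, Jf h (V p) := integral_nonneg fun p => (Jf_pos _ _).le
    have hInt1 : (∫ p in D, Jf h (V p)) ≤ v := by
      have := setIntegral_mono_on (integrableOn_JfV hD hVc h)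
        (integrableOn_const hD.measure_lt_top.ne (C := (1 : ℝ))) hD.measurableSet
        (fun x _ => Jf_le_one h (V x))
      rw [setIntegral_const, smul_eq_mul, mul_one] at this
      exact this
    exact final_arith hv0 hInt0 hInt1 hσ0.le hσ hσv hε₁0.le (min_le_left _ _) (min_le_right _ _)
      hε₂0.le hε₂1 hε₂v hq hsb

end Crest.Agent.Cyl326
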