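import Crest.Agent.Cyl.S0326.Linear
import Crest.Agent.Cyl.S0326.Lattice

/-!
The patch lemma: the part of the ruled set over a small piece `S` of `D` is covered by the fine
squares of a rotated lattice moving with the velocities of the linear model.
-/

set_option autoImplicit false

namespace Crest.Agent.Cyl326

open MeasureTheory Set

/-- corner of the fine square `ij` -/
noncomputable def corner (F : Frame) (p₀ : E2) (r : ℝ) (ij : ℤ × ℤ) : E2 :=
  p₀ + ((ij.1 : ℝ) * r) • F.e₁ + ((ij.2 : ℝ) * r) • F.e₂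

theorem mem_stdBox_iff (o x : E2) (a b c d : ℝ) :
    x ∈ stdFrame.box o a b c d ↔ (a ≤ x 0 - o 0 ∧ x 0 - o 0 ≤ b) ∧ (c ≤ x 1 - o 1 ∧ x 1 - o 1 ≤ d) := by
  simp only [Frame.box, stdFrame_coord, mem_preimage, mem_prod, mem_Icc]

theorem abs_apply_le (x : E2) (k : Fin 2) : |x k| ≤ ‖x‖ := by
  have := PiLp.norm_apply_le x k
  simpa using this

theorem norm_le_abs_add (x : E2) : ‖x‖ ≤ |x 0| + |x 1| := by
  have h := stdFrame.norm_comb_le (inner ℝ x stdFrame.e₁) (inner ℝ x stdFrame.e₂)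
  rw [← stdFrame.expand x] at h
  simpa [Frame.inner_e₁, Frame.inner_e₂, stdFrame] using h

theorem cell_subset_box (F : Frame) (p₀ o : E2) {r : ℝ} (ij : ℤ × ℤ) {a b c d : ℝ}
    (h : corner F p₀ r ij ∈ stdFrame.box o a b c d) :
    F.cell p₀ r ij ⊆ stdFrame.box o (a - 2 * r) (b + 2 * r) (c - 2 * r) (d + 2 * r) := by
  intro x hx
  simp only [Frame.cell, mem_preimage, mem_prod, mem_Ico, Frame.coord] at hx
  obtain ⟨⟨h1, h2⟩, h3, h4⟩ := hx
  have e : x - corner F p₀ r ij = (inner ℝ (x - p₀) F.e₁ - ij.1 * r) • F.e₁ +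
      (inner ℝ (x - p₀) F.e₂ - ij.2 * r) • F.e₂ := by
    have := F.expand (x - p₀)
    unfold corner
    rw [sub_smul, sub_smul]
    calc x - (p₀ + ((ij.1 : ℝ) * r) • F.e₁ + ((ij.2 : ℝ) * r) • F.e₂)
        = (x - p₀) - ((ij.1 : ℝ) * r) • F.e₁ - ((ij.2 : ℝ) * r) • F.e₂ := by abel
      _ = _ := by rw [this]; simp only [Frame.inner_comb₁, Frame.inner_comb₂]; abel
  have hn : ‖x - corner F p₀ r ij‖ ≤ 2 * r := by
    rw [e]
    refine (F.norm_comb_le _ _).trans ?_
    rw [abs_of_nonneg (by linarith), abs_of_nonneg (by linarith)]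
    linarith
  have k0 := abs_le.mp ((abs_apply_le (x - corner F p₀ r ij) 0).trans hn)
  have k1 := abs_le.mp ((abs_apply_le (x - corner F p₀ r ij) 1).trans hn)
  simp only [PiLp.sub_apply] at k0 k1
  rw [mem_stdBox_iff] at h ⊢
  obtain ⟨⟨g1, g2⟩, g3, g4⟩ := h
  refine ⟨⟨?_, ?_⟩, ?_, ?_⟩ <;> linarith [k0.1, k0.2, k1.1, k1.2]

theorem patch (p₀ v₀ : E2) (A : E2 →L[ℝ] E2)
    (htr : LinearMap.trace ℝ _ A.toLinearMap = 0) (hdet0 : LinearMap.det A.toLinearMap ≤ 0)
    {L κ M : ℝ} (hL : 0 < L) (hκ : 0 < κ)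
    (hκdet : κ ≤ 1 + L ^ 2 * LinearMap.det A.toLinearMap) (hM : ‖A‖ ≤ M)
    {r : ℝ} (hr : 0 < r) (S : Set E2) (V : E2 → E2) {η : ℝ}
    (hV : ∀ p ∈ S, ‖V p - v₀ - A (p - p₀)‖ ≤ η)
    (o : E2) {δ : ℝ} (hδ : 0 ≤ δ) (hS : S ⊆ stdFrame.box o 0 δ 0 δ) {ρ : ℝ}
    (hρ : 2 * ((1 + L * M) * (L * η + r) / κ) ≤ ρ) :
    ∃ (F : Frame) (I : Finset (ℤ × ℤ)),
      (∀ p ∈ S, ∀ s : ℝ, |s| ≤ L → ∃ ij ∈ I, ∃ x ∈ Icc (0 : ℝ) 1, ∃ y ∈ Icc (0 : ℝ) 1,
        p + s • V p = corner F p₀ r ij + x • (r • F.e₁) + y • (r • F.e₂) +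
          s • (v₀ + A (corner F p₀ r ij - p₀))) ∧
      (I.card : ℝ) * r ^ 2 ≤ (δ + 2 * ρ + 4 * r) ^ 2 ∧
      (∀ ij ∈ I, corner F p₀ r ij ∈ stdFrame.box o (-ρ) (δ + ρ) (-ρ) (δ + ρ)) := by
  classical
  obtain ⟨F, hd1, hd2⟩ := exists_frame A htr
  set β := inner ℝ (A F.e₂) F.e₁ with hβ
  set γ := inner ℝ (A F.e₁) F.e₂ with hγ
  have hM0 : 0 ≤ M := (norm_nonneg _).trans hM
  have hA1 : A F.e₁ = γ • F.e₂ := by
    have := F.expand (A F.e₁)
    rw [hd1, zero_smul, zero_add] at this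
    exact this
  have hA2 : A F.e₂ = β • F.e₁ := by
    have := F.expand (A F.e₂)
    rw [hd2, zero_smul, add_zero] at this
    exact this
  have hdet : LinearMap.det A.toLinearMap = -(β * γ) := by
    rw [det_frame A F, hd1, hd2]; ring
  have hβM : |β| ≤ M := by
    calc |β| ≤ ‖A F.e₂‖ := F.abs_inner_e₁_le _
      _ ≤ ‖A‖ * ‖F.e₂‖ := A.le_opNorm _
      _ ≤ M := by rw [F.norm_e₂, mul_one]; exact hM
  have hγM : |γ| ≤ M := by
    calc |γ| ≤ ‖A F.e₁‖ := F.abs_inner_e₂_le _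
      _ ≤ ‖A‖ * ‖F.e₁‖ := A.le_opNorm _
      _ ≤ M := by rw [F.norm_e₁, mul_one]; exact hM
  have hβγ : 0 ≤ β * γ := by rw [hdet] at hdet0; linarith
  have hAx1 : ∀ x : E2, inner ℝ (A x) F.e₁ = β * inner ℝ x F.e₂ := by
    intro x
    conv_lhs => rw [F.expand x]
    rw [map_add, map_smul, map_smul, hA1, hA2, inner_add_left, inner_smul_left, inner_smul_left,
      inner_smul_left, inner_smul_left, F.e₂_e₁, F.e₁_e₁]
    simp [mul_comm]
  have hAx2 : ∀ x : E2, inner ℝ (A x) F.e₂ = γ * inner ℝ x F.e₁ := by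
    intro x
    conv_lhs => rw [F.expand x]
    rw [map_add, map_smul, map_smul, hA1, hA2, inner_add_left, inner_smul_left, inner_smul_left,
      inner_smul_left, inner_smul_left, F.e₂_e₂, F.e₁_e₂]
    simp [mul_comm]
  -- the index set
  set B := stdFrame.box o (-ρ) (δ + ρ) (-ρ) (δ + ρ) with hB
  set R := 2 * (δ + |ρ|) + ‖o - p₀‖ with hR
  set N : ℤ := ⌈R / r⌉ with hN
  set I : Finset (ℤ × ℤ) := (Finset.Icc (-N) N ×ˢ Finset.Icc (-N) N).filter
    (fun ij => corner F p₀ r ij ∈ B) with hI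
  have hmemI : ∀ ij : ℤ × ℤ, corner F p₀ r ij ∈ B → ij ∈ I := by
    intro ij hij
    have hij' := hij
    rw [hB, mem_stdBox_iff] at hij'
    obtain ⟨⟨g1, g2⟩, g3, g4⟩ := hij'
    have hρabs := le_abs_self ρ
    have hρabs' := neg_abs_le ρ
    have n1 : ‖corner F p₀ r ij - o‖ ≤ 2 * (δ + |ρ|) := by
      refine (norm_le_abs_add _).trans ?_
      simp only [PiLp.sub_apply]
      have a0 : |(corner F p₀ r ij) 0 - o 0| ≤ δ + |ρ| := by
        rw [abs_le]; constructor <;> linarith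
      have a1 : |(corner F p₀ r ij) 1 - o 1| ≤ δ + |ρ| := by
        rw [abs_le]; constructor <;> linarith
      linarith
    have n2 : ‖corner F p₀ r ij - p₀‖ ≤ R := by
      calc ‖corner F p₀ r ij - p₀‖ = ‖(corner F p₀ r ij - o) + (o - p₀)‖ := by congr 1; abel
        _ ≤ _ := norm_add_le _ _
        _ ≤ R := by rw [hR]; linarith
    have e : corner F p₀ r ij - p₀ = ((ij.1 : ℝ) * r) • F.e₁ + ((ij.2 : ℝ) * r) • F.e₂ := by
      unfold corner; abel
    have c1 : |(ij.1 : ℝ) * r| ≤ R := by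
      have := (F.abs_inner_e₁_le (corner F p₀ r ij - p₀)).trans n2
      rwa [e, F.inner_comb₁] at this
    have c2 : |(ij.2 : ℝ) * r| ≤ R := by
      have := (F.abs_inner_e₂_le (corner F p₀ r ij - p₀)).trans n2
      rwa [e, F.inner_comb₂] at this
    have hNr : R / r ≤ N := Int.le_ceil _
    have aux : ∀ k : ℤ, |(k : ℝ) * r| ≤ R → -N ≤ k ∧ k ≤ N := by
      intro k hk
      rw [abs_mul, abs_of_pos hr, ← le_div_iff₀ hr] at hk
      have hk' := abs_le.mp (hk.trans hNr)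
      constructor
      · have : (-(N : ℝ)) ≤ k := hk'.1
        exact_mod_cast this
      · exact_mod_cast hk'.2
    rw [hI, Finset.mem_filter, Finset.mem_product, Finset.mem_Icc, Finset.mem_Icc]
    exact ⟨⟨aux _ c1, aux _ c2⟩, hij⟩
  refine ⟨F, I, ?_, ?_, ?_⟩
  · -- covering
    intro p hp s hs
    have hs2 : s ^ 2 ≤ L ^ 2 := by
      rw [← sq_abs s]; exact pow_le_pow_left₀ (abs_nonneg _) hs 2
    have hsβγ : s ^ 2 * (β * γ) ≤ L ^ 2 * (β * γ) := mul_le_mul_of_nonneg_right hs2 hβγ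
    have hκ' : κ ≤ 1 - s ^ 2 * (β * γ) := by rw [hdet] at hκdet; linarith
    set z := p + s • V p - p₀ - s • v₀ with hz
    set X := inner ℝ z F.e₁ / r with hX
    set Y := inner ℝ z F.e₂ / r with hY
    obtain ⟨i, j, hx0, hx1, hy0, hy1⟩ := lattice_cover (s * β) (s * γ)
      (by have : s * β * (s * γ) = s ^ 2 * (β * γ) := by ring
          rw [this]; positivity)
      (by have : s * β * (s * γ) = s ^ 2 * (β * γ) := by ring
          rw [this]; linarith) X Y
    have hzexp : z = (r * X) • F.e₁ + (r * Y) • F.e₂ := by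
      have := F.expand z
      rw [hX, hY, mul_div_cancel₀ _ hr.ne', mul_div_cancel₀ _ hr.ne']
      exact this
    have hcorner : corner F p₀ r (i, j) - p₀ = ((i : ℝ) * r) • F.e₁ + ((j : ℝ) * r) • F.e₂ := by
      unfold corner; abel
    -- the error term
    set err := V p - v₀ - A (p - p₀) with herr
    have herrn : ‖err‖ ≤ η := hV p hp
    set P := p - p₀ with hP
    have hzP : z = P + s • (A P + err) := by
      rw [hz, herr, hP]; module
    have hz1 : r * X = inner ℝ P F.e₁ + s * (β * inner ℝ P F.e₂ + inner ℝ err F.e₁) := by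
      rw [hX, mul_div_cancel₀ _ hr.ne', hzP, inner_add_left, inner_smul_left, inner_add_left, hAx1]
      simp
    have hz2 : r * Y = inner ℝ P F.e₂ + s * (γ * inner ℝ P F.e₁ + inner ℝ err F.e₂) := by
      rw [hY, mul_div_cancel₀ _ hr.ne', hzP, inner_add_left, inner_smul_left, inner_add_left, hAx2]
      simp
    have hη0 : 0 ≤ η := (norm_nonneg _).trans herrn
    have hW : ∀ (t ε : ℝ), 0 ≤ t → t ≤ 1 → |ε| ≤ η → |s * ε - r * t| ≤ L * η + r := by
      intro t ε ht0 ht1 hε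
      calc |s * ε - r * t| ≤ |s * ε| + |r * t| := abs_sub _ _
        _ = |s| * |ε| + r * t := by rw [abs_mul, abs_of_nonneg (by positivity : 0 ≤ r * t)]
        _ ≤ L * η + r * 1 := by
            refine add_le_add (mul_le_mul hs hε (abs_nonneg _) hL.le)
              (mul_le_mul_of_nonneg_left ht1 hr.le)
        _ = L * η + r := by ring
    obtain ⟨hu1, hu2⟩ := inverse_bound (β := β) (γ := γ) (s := s) (κ := κ) (L := L) (M := M)
      (u₁ := i * r - inner ℝ P F.e₁) (u₂ := j * r - inner ℝ P F.e₂)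
      (w₁ := s * inner ℝ err F.e₁ - r * (X - i - s * β * j))
      (w₂ := s * inner ℝ err F.e₂ - r * (Y - s * γ * i - j)) (W := L * η + r)
      hκ hL.le hs hβM hγM hκ' (by linear_combination hz1) (by linear_combination hz2)
      (hW _ _ hx0 hx1 ((F.abs_inner_e₁_le err).trans herrn))
      (hW _ _ hy0 hy1 ((F.abs_inner_e₂_le err).trans herrn))
    have hu : ‖corner F p₀ r (i, j) - p‖ ≤ ρ := by
      have e : corner F p₀ r (i, j) - p = (i * r - inner ℝ P F.e₁) • F.e₁ +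
          (j * r - inner ℝ P F.e₂) • F.e₂ := by
        have h1 : corner F p₀ r (i, j) - p = (corner F p₀ r (i, j) - p₀) - P := by rw [hP]; abel
        rw [h1, hcorner]
        conv_lhs => rw [F.expand P]
        module
      rw [e]
      refine (F.norm_comb_le _ _).trans ?_
      linarith
    refine ⟨(i, j), hmemI _ ?_, X - i - s * β * j, ⟨hx0, hx1⟩, Y - s * γ * i - j, ⟨hy0, hy1⟩, ?_⟩
    · have hpS := hS hp
      rw [mem_stdBox_iff] at hpS
      obtain ⟨⟨g1, g2⟩, g3, g4⟩ := hpS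
      have k0 := abs_le.mp ((abs_apply_le (corner F p₀ r (i, j) - p) 0).trans hu)
      have k1 := abs_le.mp ((abs_apply_le (corner F p₀ r (i, j) - p) 1).trans hu)
      simp only [PiLp.sub_apply] at k0 k1
      rw [hB, mem_stdBox_iff]
      refine ⟨⟨?_, ?_⟩, ?_, ?_⟩ <;> linarith [k0.1, k0.2, k1.1, k1.2]
    · have h1 : p + s • V p = p₀ + s • v₀ + z := by rw [hz]; abel
      rw [h1, hzexp, hcorner, map_add, map_smul, map_smul, hA1, hA2]
      unfold corner
      module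
  · -- counting
    have hsub : ∀ ij ∈ I, F.cell p₀ r ij ⊆
        stdFrame.box o (-ρ - 2 * r) (δ + ρ + 2 * r) (-ρ - 2 * r) (δ + ρ + 2 * r) := by
      intro ij hij
      rw [hI, Finset.mem_filter] at hij
      exact cell_subset_box F p₀ o ij hij.2
    have hvol := stdFrame.volume_box o (-ρ - 2 * r) (δ + ρ + 2 * r) (-ρ - 2 * r) (δ + ρ + 2 * r)
    have h := F.card_mul_le p₀ hr I _ (by rw [hvol]; exact ENNReal.mul_ne_top (by simp) (by simp)) hsub
    rw [hvol, ENNReal.toReal_mul] at h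
    by_cases hpos : 0 ≤ δ + ρ + 2 * r - (-ρ - 2 * r)
    · rw [ENNReal.toReal_ofReal hpos] at h
      calc _ ≤ _ := h
        _ = _ := by ring
    · rw [ENNReal.ofReal_of_nonpos (by linarith)] at h
      simp only [ENNReal.toReal_zero, mul_zero] at h
      exact h.trans (sq_nonneg _)
  · intro ij hij
    rw [hI, Finset.mem_filter] at hij
    exact hij.2

end Crest.Agent.Cyl326
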